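import Vale.Agent.Lib.P048.Ramsey

/-!
P048, a partial result. For finite graphs with independence number at most `a`:
an `n`-cycle in a graph with no cycle of length `n + 2` sends at most `a * n` edges out;
minimum degree `k ≥ 2 a + 1` forces all cycle lengths from `3` to `k - a + 2`;
consequently `R(C_m, K_n) ≤ (m - 1) (n - 1) + C(n - 1, 2) + 1` whenever `m ≥ n + 2`.
-/

open Finset

open scoped Classical

namespace Vale.Agent.Results.P048.A_spectrum

open Vale.Agent.Lib.P048

private lemma ncard_setOf_eq {V : Type} [Fintype V] (P : V → Prop) :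
    Set.ncard {y | P y} = (Finset.univ.filter P).card := by
  rw [← Set.ncard_coe_finset]
  congr 1
  ext y
  simp

private lemma perCycle_of_copy {V : Type} {G : SimpleGraph V} {n : ℕ} (hn : 3 ≤ n)
    (φ : SimpleGraph.Copy (SimpleGraph.cycleGraph n) G) :
    ∃ f : ℕ → V, PerCycle G n f ∧ ∀ x : Fin n, f x.val = φ x := by
  have hpos : 0 < n := by omega
  refine ⟨fun s => φ ⟨s % n, Nat.mod_lt _ hpos⟩, ⟨?_, ?_, ?_⟩, ?_⟩
  · intro s
    simp
  · intro s
    apply φ.toHom.map_adj
    rw [SimpleGraph.cycleGraph_adj']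
    right
    have h1 : (s + 1) % n = (s % n + 1) % n := by simp [Nat.add_mod]
    have hlt := Nat.mod_lt s hpos
    by_cases h2 : s % n + 1 < n
    · have h3 : (s + 1) % n = s % n + 1 := by rw [h1, Nat.mod_eq_of_lt h2]
      have hle : (⟨s % n, hlt⟩ : Fin n) ≤ ⟨(s + 1) % n, Nat.mod_lt _ hpos⟩ := by
        rw [Fin.le_def]
        simp only
        omega
      rw [(Fin.coe_sub_iff_le).2 hle]
      simp only
      omega
    · have h4 : s % n + 1 = n := by omega
      have h3 : (s + 1) % n = 0 := by rw [h1, h4, Nat.mod_self]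
      have hlt' : (⟨(s + 1) % n, Nat.mod_lt _ hpos⟩ : Fin n) < ⟨s % n, hlt⟩ := by
        rw [Fin.lt_def]
        simp only
        omega
      rw [(Fin.coe_sub_iff_lt).2 hlt']
      simp only
      omega
  · intro s s' h1 h2 he
    have h3 := φ.injective he
    have h4 : s ≡ s' [MOD n] := by
      change s % n = s' % n
      simpa using congrArg Fin.val h3
    have h5 := (Nat.modEq_iff_dvd' h1.le).1 h4
    have h6 := Nat.le_of_dvd (by omega) h5
    omega
  · intro x
    have : (⟨x.val % n, Nat.mod_lt _ hpos⟩ : Fin n) = x := Fin.ext (Nat.mod_eq_of_lt x.isLt)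
    simp only [this]

/-- The three statements: the edge-count bound for an `n`-cycle when no `(n + 2)`-cycle exists, the
cycle spectrum, and the upper bound for `R(C_m, K_n)`. -/
theorem result :
    (∀ (V : Type) [Fintype V] (G : SimpleGraph V) (n a : ℕ), 3 ≤ n →
      (∀ s : Finset V, G.IsIndepSet (s : Set V) → s.card ≤ a) →
      ¬ (SimpleGraph.cycleGraph (n + 2)).IsContained G →
      ∀ φ : SimpleGraph.Copy (SimpleGraph.cycleGraph n) G,
        ∑ x : Fin n, Set.ncard {y | G.Adj (φ x) y ∧ y ∉ Set.range φ} ≤ a * n) ∧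
    (∀ (V : Type) [Fintype V] [Nonempty V] (G : SimpleGraph V) (k a : ℕ),
      (∀ v, k ≤ (G.neighborSet v).ncard) →
      (∀ s : Finset V, G.IsIndepSet (s : Set V) → s.card ≤ a) → 2 * a + 1 ≤ k →
      ∀ m, 3 ≤ m → m + a ≤ k + 2 → (SimpleGraph.cycleGraph m).IsContained G) ∧
    (∀ m n : ℕ, 1 ≤ n → n + 2 ≤ m → ∀ (V : Type) [Fintype V] (G : SimpleGraph V),
      (m - 1) * (n - 1) + (n - 1).choose 2 + 1 ≤ Fintype.card V →
      (SimpleGraph.cycleGraph m).IsContained G ∨
        ∃ s : Finset V, s.card = n ∧ G.IsIndepSet (s : Set V)) := by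
  refine ⟨?_, ?_, ?_⟩
  · intro V _ G n a hn hα hno φ
    obtain ⟨f, hf, hfφ⟩ := perCycle_of_copy hn φ
    letI : Inhabited V := ⟨φ ⟨0, by omega⟩⟩
    have hno' : ¬ HasC G (n + 2) := fun h => hno (hasC_to_copy (by omega) h)
    have hkey := key_lemma hf (by omega) hno' a hα
    have hcongr : ∀ x : Fin n, Set.ncard {y | G.Adj (φ x) y ∧ y ∉ Set.range φ} =
        (Finset.univ.filter (fun y => G.Adj (f x.val) y ∧ ∀ s, y ≠ f s)).card := by
      intro x
      rw [ncard_setOf_eq, hfφ x]
      congr 1
      ext y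
      simp only [Finset.mem_filter, Finset.mem_univ, true_and, and_congr_right_iff]
      intro _
      constructor
      · intro hy s hs
        apply hy
        have hpos : 0 < n := by omega
        refine ⟨⟨s % n, Nat.mod_lt _ hpos⟩, ?_⟩
        have h1 := hfφ ⟨s % n, Nat.mod_lt _ hpos⟩
        rw [← h1, hs]
        exact hf.mod_eq hpos s
      · rintro hy ⟨x', rfl⟩
        exact hy x'.val (hfφ x').symm
    simp_rw [hcongr]
    have := Fin.sum_univ_eq_sum_range
      (fun i => (Finset.univ.filter (fun y => G.Adj (f i) y ∧ ∀ s, y ≠ f s)).card) n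
    rw [this]
    exact hkey
  · intro V _ _ G k a hδ hα hka m hm hma
    letI : Inhabited V := Classical.inhabited_of_nonempty inferInstance
    have hδ' : ∀ v, k ≤ (Finset.univ.filter (fun y => G.Adj v y)).card := by
      intro v
      have := hδ v
      have h2 : G.neighborSet v = {y | G.Adj v y} := rfl
      rwa [h2, ncard_setOf_eq] at this
    exact hasC_to_copy hm (spectrum k a hδ' hα hka m hm hma)
  · intro m n hn hm V _ G hcard
    by_cases hind : ∃ s : Finset V, s.card = n ∧ G.IsIndepSet (s : Set V)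
    · exact Or.inr hind
    · left
      refine hasC_to_copy (by omega) (ramsey_bound (n - 1) m V G (by omega) hcard ?_)
      intro s hs
      by_contra hc
      obtain ⟨t, hts, htc⟩ := Finset.exists_subset_card_eq (s := s) (n := n) (by omega)
      exact hind ⟨t, htc, hs.mono (by exact_mod_cast hts)⟩

end Vale.Agent.Results.P048.A_spectrum
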